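import Vale.Agent.P210.H684.FinalS

open scoped RealInnerProductSpace
open Vale.Agent.P210 Vale.Agent.P210.Cvx

/-- Gromov's codimension two width conjecture, in every dimension and with an explicit constant,
for all closed connected embedded hypersurfaces of Euclidean space with nonnegative Ricci
curvature, and for all smooth convex hypersurfaces. -/
theorem Vale.Agent.Results.P210.RicciHypersurface.result :
    ∀ n : ℕ, 3 ≤ n → ∀ M : Set (E (n + 1)), IsClosed M → IsHypersurface M →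
      (∀ (U : Set (E n)) (φ : E n → E (n + 1)), IsLocalParam M U φ →
        ∀ x ∈ U, 1 ≤ scal (induced φ) x) →
      ((IsConnected M ∧
        ∀ (U : Set (E n)) (φ : E n → E (n + 1)), IsLocalParam M U φ →
          ∀ x ∈ U, ∀ w : Fin n → ℝ,
            0 ≤ ∑ i, ∑ j, ricci (induced φ) i j x * w i * w j) ∨
        ∃ K : Set (E (n + 1)), IsClosed K ∧ Convex ℝ K ∧ SmoothBoundary K ∧ frontier K = M) →
      UrysohnWidthLE M (intrinsicDist M) (n - 2) (702 * n * (n - 1) * 2 ^ (n - 1)) ∧
      ∃ f : Fin 3 → E (n + 1), Orthonormal ℝ f ∧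
        ∀ x ∈ M, ∀ y ∈ M, ∀ i, |⟪f i, x - y⟫| ≤ 36 * n * (n - 1) * 2 ^ (n - 1) := by
  intro n hn M hcl hM hscal hyp
  have h := main_hyp hn hcl hM hscal hyp
  have h1 : ((n - 1 : ℕ) : ℝ) = n - 1 := by
    rw [Nat.cast_sub (by omega), Nat.cast_one]
  have h2 : thinC n = 18 * n * (n - 1) * 2 ^ (n - 1) := by
    unfold thinC
    rw [h1]
    ring
  have h3 : (39 : ℝ) * thinC n = 702 * n * (n - 1) * 2 ^ (n - 1) := by rw [h2]; ring
  have h4 : (2 : ℝ) * thinC n = 36 * n * (n - 1) * 2 ^ (n - 1) := by rw [h2]; ring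
  rw [h3, h4] at h
  exact h
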